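import Vale.Agent.Lib.P086.Main

/-!
# P086: isomorphisms of free group factors that send generators to finitely supported elements

Let `F_α`, `F_β` be free groups and let `L(F_α) = λ(F_α)''`, `L(F_β) = λ(F_β)''` be their group von
Neumann algebras (on Hilbert spaces with Hilbert bases indexed by the groups, such as `ℓ²`).  If a
trace-preserving `*`-isomorphism `θ : L(F_α) → L(F_β)` sends every canonical generator `λ(a)` to a
finite linear combination of the unitaries `λ(g)`, then `α` and `β` have the same cardinality.
-/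

namespace Vale.Agent.Results.P086.FiniteSupportRigidity

open Vale.Agent.P086

theorem result {α β H H' : Type} [NormedAddCommGroup H] [InnerProductSpace ℂ H] [CompleteSpace H]
    [NormedAddCommGroup H'] [InnerProductSpace ℂ H'] [CompleteSpace H']
    (b : HilbertBasis (FreeGroup α) ℂ H) (b' : HilbertBasis (FreeGroup β) ℂ H')
    (θ : (H →L[ℂ] H) → (H' →L[ℂ] H')) (hθ : IsStarIso b b' θ)
    (htr : ∀ x ∈ groupVN b, vnTrace b' (θ x) = vnTrace b x)
    (hfin : ∀ (a : α) (u : H →L[ℂ] H), IsLeftTranslation b (FreeGroup.of a) u → FinSupp b' (θ u)) :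
    Nonempty (α ≃ β) := by
  haveI := twoUniqueProds_of_isFreeGroup (FreeGroup β)
  obtain ⟨e⟩ := exists_mulEquiv_of_finSupp b b' θ hθ htr hfin
  exact ⟨Equiv.ofFreeGroupEquiv e⟩

end Vale.Agent.Results.P086.FiniteSupportRigidity
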